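import Vale.Agent.Lib.P195F.Star

/-!
Duality count: over a local self-injective ring, `Hom(X, R)` has the length of `X`.
-/

set_option linter.style.haveILetI false
set_option linter.unusedVariables false

namespace Vale.Agent.Lib.P195F

open Vale.Agent.Lib.P195

universe u

variable (S : Type*) [CommRing S] {R : Type u} [Ring R] [Algebra S R] [IsArtinianRing S]
  [Module.Finite S R]

/-- The residue module. -/
abbrev resid (R : Type u) [Ring R] : Type u := R ⧸ Ring.jacobson R

omit [IsArtinianRing S] [Module.Finite S R] in
/-- `hlen` can be computed with any compatible `S`-structure on the target. -/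
lemma hlen_eq_length {A B : Type*} [AddCommGroup A] [Module R A] [AddCommGroup B] [Module R B]
    [inst : Module S B] [IsScalarTower S R B] :
    hlen S R A B = (Module.length S (A →ₗ[R] B)).toNat := by
  unfold hlen
  have h : modS S R B = inst := by
    ext c b
    show (algebraMap S R c) • b = c • b
    rw [algebraMap_smul]
  subst h
  rfl

/-- The residue module has the same count on both sides. -/
lemma hlen_residue (L : LSI R) : hlen S R (resid R) R = hlen S R R (resid R) := by
  classical
  obtain ⟨s, hs0, hs⟩ := L.exists_soc_ring
  rw [hlen_eq_length S, hlen_eq_length S]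
  -- the right multiplications by elements, as maps on the residue module
  have hkill : ∀ r : R, Ring.jacobson R ≤ LinearMap.ker (LinearMap.toSpanSingleton R R (s * r)) := by
    intro r x hx
    have : x * (s * r) = 0 := by rw [← mul_assoc, hs x hx, zero_mul]
    simpa [LinearMap.toSpanSingleton_apply] using this
  have hψa : ∀ (r x : R), ((Ring.jacobson R).liftQ (LinearMap.toSpanSingleton R R (s * r)) (hkill r))
      (Submodule.Quotient.mk x) = x * (s * r) := fun r x => rfl
  let ψ : R →ₗ[S] (resid R →ₗ[R] R) :=
    { toFun := fun r => (Ring.jacobson R).liftQ (LinearMap.toSpanSingleton R R (s * r)) (hkill r)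
      map_add' := by
        intro a b
        apply LinearMap.ext
        intro z
        obtain ⟨x, rfl⟩ := Submodule.Quotient.mk_surjective _ z
        rw [LinearMap.add_apply, hψa, hψa, hψa]
        noncomm_ring
      map_smul' := by
        intro c a
        apply LinearMap.ext
        intro z
        obtain ⟨x, rfl⟩ := Submodule.Quotient.mk_surjective _ z
        rw [RingHom.id_apply, LinearMap.smul_apply, hψa, hψa, Algebra.smul_def, Algebra.smul_def]
        have h1 : s * algebraMap S R c = algebraMap S R c * s := (Algebra.commutes c s).symm
        have h2 : x * algebraMap S R c = algebraMap S R c * x := (Algebra.commutes c x).symm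
        calc x * (s * (algebraMap S R c * a)) = x * ((s * algebraMap S R c) * a) := by
              rw [mul_assoc]
          _ = x * ((algebraMap S R c * s) * a) := by rw [h1]
          _ = (x * algebraMap S R c) * (s * a) := by noncomm_ring
          _ = (algebraMap S R c * x) * (s * a) := by rw [h2]
          _ = algebraMap S R c * (x * (s * a)) := by noncomm_ring }
  let q : R →ₗ[S] resid R := (Ring.jacobson R).mkQ.restrictScalars S
  have hψ : Function.Surjective ψ := by
    intro f
    have hf1 : ∀ j ∈ Ring.jacobson R, j * f (Submodule.Quotient.mk 1) = 0 := by
      intro j hj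
      have : j • (Submodule.Quotient.mk 1 : resid R) = 0 := by
        rw [← Submodule.Quotient.mk_smul, Submodule.Quotient.mk_eq_zero]
        simpa using hj
      have h2 := congrArg f this
      rwa [map_smul, map_zero] at h2
    obtain ⟨t, ht⟩ := L.soc_transitive hs hf1 hs0
    refine ⟨t, ?_⟩
    apply LinearMap.ext
    intro z
    obtain ⟨x, rfl⟩ := Submodule.Quotient.mk_surjective _ z
    show ((Ring.jacobson R).liftQ (LinearMap.toSpanSingleton R R (s * t)) (hkill t))
      (Submodule.Quotient.mk x) = f _
    have h3 : (Submodule.Quotient.mk x : resid R) = x • (Submodule.Quotient.mk 1 : resid R) := by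
      rw [← Submodule.Quotient.mk_smul, smul_eq_mul, mul_one]
    rw [hψa, h3, map_smul, ← ht]
    rfl
  have hq : Function.Surjective q := Submodule.Quotient.mk_surjective _
  have hker : LinearMap.ker ψ = LinearMap.ker q := by
    ext r
    constructor
    · intro hr
      have h1 : ψ r (Submodule.Quotient.mk 1) = 0 := by
        rw [LinearMap.mem_ker.mp hr]
        rfl
      have h2 : s * r = 0 := by
        have h4 := hψa r 1
        rw [one_mul] at h4
        rw [← h4]
        exact h1
      have hJ : r ∈ Ring.jacobson R := by
        by_contra hn
        obtain ⟨u, rfl⟩ := L.unit r hn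
        apply hs0
        have := congrArg (fun z => z * (↑u⁻¹ : R)) h2
        simpa [mul_assoc] using this
      show Submodule.Quotient.mk r = 0
      rwa [Submodule.Quotient.mk_eq_zero]
    · intro hr
      have hJ : r ∈ Ring.jacobson R := by
        have h : Submodule.Quotient.mk r = (0 : resid R) := hr
        rwa [Submodule.Quotient.mk_eq_zero] at h
      rw [LinearMap.mem_ker]
      apply LinearMap.ext
      intro z
      obtain ⟨x, rfl⟩ := Submodule.Quotient.mk_surjective _ z
      show ((Ring.jacobson R).liftQ (LinearMap.toSpanSingleton R R (s * r)) (hkill r))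
        (Submodule.Quotient.mk x) = 0
      rw [hψa, L.soc_mul hs hJ, mul_zero]
  have e1 := (ψ.quotKerEquivOfSurjective hψ).length_eq
  have e2 := (q.quotKerEquivOfSurjective hq).length_eq
  have e3 : Module.length S (R ⧸ LinearMap.ker ψ) = Module.length S (R ⧸ LinearMap.ker q) := by
    rw [hker]
  rw [(LinearMap.ringLmapEquivSelf R S (resid R)).length_eq, ← e1, ← e2, e3]

/-- Elements of a module killed by the radical give maps from the residue module. -/
lemma exists_resid_map {X : Type u} [AddCommGroup X] [Module R X] (y : X)
    (hy : ∀ j ∈ Ring.jacobson R, j • y = 0) :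
    ∃ i : resid R →ₗ[R] X, ∀ r : R, i (Submodule.Quotient.mk r) = r • y := by
  refine ⟨(Ring.jacobson R).liftQ (LinearMap.toSpanSingleton R X y) ?_, fun r => ?_⟩
  · intro x hx
    exact hy x hx
  · rfl

/-- Over a local self-injective ring, the length of `Hom(X, R)` is the length of `X`. -/
theorem hlen_dual (L : LSI R) [IsArtinianRing R] (n : ℕ) :
    ∀ (X : Type u) [AddCommGroup X] [Module R X] [Module.Finite R X],
      (Module.length R X).toNat = n → hlen S R X R = hlen S R R X := by
  induction n using Nat.strong_induction_on with
  | _ n ih =>
    intro X _ _ _ hn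
    haveI := L.inj
    haveI : Nontrivial R := L.nontriv
    by_cases hX : Subsingleton X
    · have h1 : hlen S R X R = 0 := by
        letI := modS S R R
        haveI := towerS S R R
        unfold hlen
        have : Subsingleton (X →ₗ[R] R) := ⟨fun f g => by
          ext x
          rw [Subsingleton.elim x 0, map_zero, map_zero]⟩
        simp [Module.length_eq_zero]
      have h2 : hlen S R R X = 0 := by
        letI := modS S R X
        haveI := towerS S R X
        unfold hlen
        have : Subsingleton (R →ₗ[R] X) := ⟨fun f g => by
          ext
          exact Subsingleton.elim _ _⟩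
        simp [Module.length_eq_zero]
      rw [h1, h2]
    · obtain ⟨x, hx⟩ : ∃ x : X, x ≠ 0 := by
        by_contra h
        push Not at h
        exact hX ⟨fun a b => by rw [h a, h b]⟩
      obtain ⟨a, ha, hsoc⟩ := L.exists_soc x hx
      obtain ⟨i, hi⟩ := exists_resid_map (a • x) hsoc
      have hiinj : Function.Injective i := by
        rw [injective_iff_map_eq_zero]
        intro z hz
        obtain ⟨r, rfl⟩ := Submodule.Quotient.mk_surjective _ z
        rw [hi] at hz
        rw [Submodule.Quotient.mk_eq_zero]
        by_contra hn
        obtain ⟨u, rfl⟩ := L.unit r hn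
        apply ha
        have := congrArg (fun z => (↑u⁻¹ : R) • z) hz
        simpa [smul_smul] using this
      let W := LinearMap.range i
      let Q := X ⧸ W
      have hex : Function.Exact i W.mkQ := LinearMap.exact_map_mkQ_range i
      have hs : Function.Surjective W.mkQ := Submodule.mkQ_surjective W
      have hlenX : Module.length R X = Module.length R (resid R) + Module.length R Q :=
        Module.length_eq_add_of_exact i W.mkQ hiinj hs hex
      have hlt : (Module.length R Q).toNat < n := by
        have h1 : Module.length R X ≠ ⊤ := Module.length_ne_top
        have h2 : Nontrivial (resid R) := by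
          refine Submodule.Quotient.nontrivial_iff.mpr ?_
          exact ne_of_lt (Ring.jacobson_lt_top R)
        have h3 : 0 < Module.length R (resid R) := Module.length_pos
        have h4 : Module.length R (resid R) ≠ ⊤ := Module.length_ne_top
        have h5 : Module.length R Q ≠ ⊤ := Module.length_ne_top
        obtain ⟨b, hb⟩ := ENat.ne_top_iff_exists.mp h4
        obtain ⟨c, hc⟩ := ENat.ne_top_iff_exists.mp h5
        rw [← hn, hlenX, ← hb, ← hc]
        rw [← hb] at h3
        have : 0 < b := by exact_mod_cast h3
        rw [← Nat.cast_add]
        simp only [ENat.toNat_natCast]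
        omega
      have hQ := ih _ hlt Q rfl
      have e1 : hlen S R X R = hlen S R Q R + hlen S R (resid R) R :=
        hlen_add_of_extend S i W.mkQ hiinj hs hex (fun f =>
          Module.Injective.out i hiinj f |>.imp fun g hg => by
            apply LinearMap.ext
            intro z
            exact hg z)
      have e2 : hlen S R R X = hlen S R R (resid R) + hlen S R R Q :=
        hlen_ring_add S i W.mkQ hiinj hs hex
      rw [e1, e2, hQ, hlen_residue S L, add_comm]

end Vale.Agent.Lib.P195F
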