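import Vale.Agent.Lib.P195F.Main

/-!
The final form: local self-injective Artin algebras with `J⁴ = 0` and composition length at least
ten satisfy the Auslander-Reiten conjecture.
-/

set_option linter.style.haveILetI false
set_option linter.unusedVariables false
set_option linter.unusedSectionVars false

open CategoryTheory Abelian

namespace Vale.Agent.Lib.P195F

open Vale.Agent.Lib.P195

universe u v

/-- In a local ring, elements outside the Jacobson radical are units. -/
lemma isUnit_of_not_mem_jacobson {R : Type u} [Ring R] [IsLocalRing R] (x : R)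
    (hx : x ∉ Ring.jacobson R) : IsUnit x := by
  by_contra hu
  apply hx
  rw [Ring.jacobson, Module.jacobson, Submodule.mem_sInf]
  intro m hm
  by_contra hxm
  have hsup : m ⊔ Submodule.span R {x} = ⊤ := hm.2 _ (by
    refine lt_of_le_of_ne le_sup_left fun h => hxm ?_
    rw [h]
    exact Submodule.mem_sup_right (Submodule.mem_span_singleton_self x))
  have h1 : (1 : R) ∈ m ⊔ Submodule.span R {x} := by
    rw [hsup]
    trivial
  obtain ⟨y, hy, z, hz, hyz⟩ := Submodule.mem_sup.mp h1
  obtain ⟨r, rfl⟩ := Submodule.mem_span_singleton.mp hz
  rcases IsLocalRing.isUnit_or_isUnit_of_add_one hyz with hyu | hru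
  · -- a unit in a proper left ideal
    obtain ⟨u, rfl⟩ := hyu
    apply hm.1
    rw [eq_top_iff]
    intro t _
    have : t = (t * (↑u⁻¹ : R)) • (u : R) := by simp [mul_assoc]
    rw [this]
    exact m.smul_mem _ hy
  · -- `x` has a left inverse
    obtain ⟨u, hu'⟩ := hru
    have hleft : (↑u⁻¹ * r) * x = 1 := by
      rw [mul_assoc]
      have : r * x = (u : R) := by simpa [smul_eq_mul] using hu'.symm
      rw [this, Units.inv_mul]
    set w := (↑u⁻¹ : R) * r with hw
    have hsum : x * w + (1 - x * w) = 1 := add_sub_cancel _ _
    rcases IsLocalRing.isUnit_or_isUnit_of_add_one hsum with h2 | h2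
    · apply hu
      obtain ⟨v, hv⟩ := h2
      have hr : x * (w * ↑v⁻¹) = 1 := by
        rw [← mul_assoc, ← hv, Units.mul_inv]
      have hw2 : w * ↑v⁻¹ = w := by
        calc w * ↑v⁻¹ = (w * x) * (w * ↑v⁻¹) := by rw [hleft, one_mul]
          _ = w * (x * (w * ↑v⁻¹)) := by rw [mul_assoc]
          _ = w := by rw [hr, mul_one]
      rw [hw2] at hr
      exact ⟨⟨x, w, hr, hleft⟩, rfl⟩
    · obtain ⟨v, hv⟩ := h2
      have h3 : (1 - x * w) * x = 0 := by
        rw [sub_mul, one_mul, mul_assoc, hleft, mul_one, sub_self]
      rw [← hv] at h3
      have h4 : x = 0 := by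
        have := congrArg (fun z => (↑v⁻¹ : R) * z) h3
        simpa [← mul_assoc] using this
      rw [h4, mul_zero] at hleft
      exact zero_ne_one hleft

section Count

variable (S : Type v) [CommRing S] {R : Type u} [Ring R] [Algebra S R] [IsArtinianRing S]
  [Module.Finite S R]

/-- The residue module has composition length one. -/
lemma length_resid (L : LSI R) : Module.length R (resid R) = 1 := by
  haveI : Nontrivial R := L.nontriv
  haveI : IsSimpleModule R (resid R) := by
    rw [isSimpleModule_iff_isCoatom]
    refine ⟨ne_of_lt (Ring.jacobson_lt_top R), fun I hI => ?_⟩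
    obtain ⟨x, hxI, hxJ⟩ := SetLike.exists_of_lt hI
    obtain ⟨u, rfl⟩ := L.unit x hxJ
    rw [eq_top_iff]
    intro t _
    have : t = (t * (↑u⁻¹ : R)) • (u : R) := by simp [mul_assoc]
    rw [this]
    exact I.smul_mem _ hxI
  exact Module.length_eq_one R (resid R)

/-- The `S`-length of a module is its composition length times the length of the residue module. -/
theorem hlen_ring_length (L : LSI R) [IsArtinianRing R] (n : ℕ) :
    ∀ (X : Type u) [AddCommGroup X] [Module R X] [Module.Finite R X],
      (Module.length R X).toNat = n → hlen S R R X = n * hlen S R R (resid R) := by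
  induction n using Nat.strong_induction_on with
  | _ n ih =>
    intro X _ _ _ hn
    haveI : Nontrivial R := L.nontriv
    by_cases hX : Subsingleton X
    · have h2 : hlen S R R X = 0 := by
        letI := modS S R X
        haveI := towerS S R X
        unfold hlen
        have : Subsingleton (R →ₗ[R] X) := ⟨fun f g => by
          ext
          exact Subsingleton.elim _ _⟩
        simp [Module.length_eq_zero]
      have h3 : n = 0 := by
        rw [← hn, Module.length_eq_zero]
        rfl
      rw [h2, h3, zero_mul]
    · obtain ⟨x, hx⟩ : ∃ x : X, x ≠ 0 := by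
        by_contra h
        push Not at h
        exact hX ⟨fun a b => by rw [h a, h b]⟩
      obtain ⟨a, ha, hsoc⟩ := L.exists_soc x hx
      obtain ⟨i, hi⟩ := exists_resid_map (a • x) hsoc
      have hiinj : Function.Injective i := by
        rw [injective_iff_map_eq_zero]
        intro z hz
        obtain ⟨r, rfl⟩ := Submodule.Quotient.mk_surjective _ z
        rw [hi] at hz
        rw [Submodule.Quotient.mk_eq_zero]
        by_contra hn
        obtain ⟨u, rfl⟩ := L.unit r hn
        apply ha
        have := congrArg (fun z => (↑u⁻¹ : R) • z) hz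
        simpa [smul_smul] using this
      let W := LinearMap.range i
      let Q := X ⧸ W
      have hex : Function.Exact i W.mkQ := LinearMap.exact_map_mkQ_range i
      have hs : Function.Surjective W.mkQ := Submodule.mkQ_surjective W
      have hlenX : Module.length R X = Module.length R (resid R) + Module.length R Q :=
        Module.length_eq_add_of_exact i W.mkQ hiinj hs hex
      have h5 : Module.length R Q ≠ ⊤ := Module.length_ne_top
      obtain ⟨c, hc⟩ := ENat.ne_top_iff_exists.mp h5
      have hn' : n = c + 1 := by
        rw [← hn, hlenX, length_resid L, ← hc, add_comm]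
        norm_cast
      have hQ := ih c (by omega) Q (by rw [← hc]; rfl)
      have e2 : hlen S R R X = hlen S R R (resid R) + hlen S R R Q :=
        hlen_ring_add S i W.mkQ hiinj hs hex
      rw [e2, hQ, hn']
      ring

end Count

/-- **Main theorem.**  Let `R` be an Artin algebra which is local and self-injective, with
`J⁴ = 0` for its Jacobson radical `J`, of composition length at least ten.  A finitely generated
module `M` with `Ext^i(M, M) = 0` for all `i ≥ 1` is projective. -/
theorem local_selfinjective_rad_four {S : Type v} {R : Type u} [CommRing S] [IsArtinianRing S]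
    [Ring R] [Algebra S R] [Module.Finite S R] [IsLocalRing R] (hinj : Module.Injective R R)
    (hJ : ∀ a ∈ Ring.jacobson R, ∀ b ∈ Ring.jacobson R, ∀ c ∈ Ring.jacobson R,
      ∀ d ∈ Ring.jacobson R, a * b * c * d = 0)
    (hlen : 10 ≤ Module.length R R)
    (M : ModuleCat.{u} R) [Module.Finite R M]
    (h : ∀ i : ℕ, 1 ≤ i → ∀ e : Ext M M i, e = 0) : Module.Projective R M := by
  have L : LSI R := ⟨inferInstance, isUnit_of_not_mem_jacobson, hinj, hJ⟩
  haveI : IsArtinianRing R := isArtinian_of_tower S inferInstance
  refine lsi_projective S L ?_ M (fun n e => h (n + 1) (by omega) e)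
  have h1 := hlen_ring_length S L _ R rfl
  rw [h1]
  have hne : Module.length R R ≠ ⊤ := Module.length_ne_top
  obtain ⟨c, hc⟩ := ENat.ne_top_iff_exists.mp hne
  have hc10 : 10 ≤ c := by
    rw [← hc] at hlen
    exact_mod_cast hlen
  rw [← hc]
  simp only [ENat.toNat_natCast]
  exact Nat.mul_le_mul_right _ hc10

end Vale.Agent.Lib.P195F
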