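import Vale.Agent.Lib.P195F.Ring

/-!
Counting lemmas for lengths of Hom groups.
-/

set_option linter.style.haveILetI false
set_option linter.unusedVariables false

namespace Vale.Agent.Lib.P195F

open Vale.Agent.Lib.P195

universe u

/-- The abstract count behind the layer inequalities. -/
lemma count_le {S G V W A D : Type*} [CommRing S] [AddCommGroup G] [Module S G]
    [AddCommGroup V] [Module S V] [AddCommGroup W] [Module S W] [AddCommGroup A] [Module S A]
    [AddCommGroup D] [Module S D]
    (e : G →ₗ[S] V) (he : Function.Surjective e) (r : G →ₗ[S] D)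
    (a : W →ₗ[S] A) (ρ : W →ₗ[S] V) (h1 : LinearMap.ker a ≤ LinearMap.ker ρ)
    (h2 : ∀ g, r g = 0 → e g ∈ LinearMap.range ρ) :
    Module.length S V ≤ Module.length S A + Module.length S D := by
  set U := LinearMap.range ρ with hUdef
  have hU : Module.length S U ≤ Module.length S A := by
    calc Module.length S U = Module.length S (W ⧸ LinearMap.ker ρ) :=
          (ρ.quotKerEquivRange).length_eq.symm
      _ ≤ Module.length S (W ⧸ LinearMap.ker a) :=
          Module.length_le_of_surjective (Submodule.factor h1) (Submodule.factor_surjective h1)
      _ = Module.length S (LinearMap.range a) := (a.quotKerEquivRange).length_eq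
      _ ≤ Module.length S A :=
          Module.length_le_of_injective (LinearMap.range a).subtype (Submodule.subtype_injective _)
  let m : G →ₗ[S] V ⧸ U := U.mkQ ∘ₗ e
  have hm : Function.Surjective m := (Submodule.mkQ_surjective U).comp he
  have hkm : LinearMap.ker r ≤ LinearMap.ker m := by
    intro g hg
    have : e g ∈ U := h2 g hg
    simpa [m, Submodule.Quotient.mk_eq_zero] using this
  have hQ : Module.length S (V ⧸ U) ≤ Module.length S D := by
    calc Module.length S (V ⧸ U) = Module.length S (G ⧸ LinearMap.ker m) :=
          (m.quotKerEquivOfSurjective hm).length_eq.symm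
      _ ≤ Module.length S (G ⧸ LinearMap.ker r) :=
          Module.length_le_of_surjective (Submodule.factor hkm) (Submodule.factor_surjective hkm)
      _ = Module.length S (LinearMap.range r) := (r.quotKerEquivRange).length_eq
      _ ≤ Module.length S D :=
          Module.length_le_of_injective (LinearMap.range r).subtype (Submodule.subtype_injective _)
  rw [Module.length_eq_add_of_exact U.subtype U.mkQ (Submodule.subtype_injective _)
    (Submodule.mkQ_surjective _) (LinearMap.exact_subtype_mkQ U)]
  exact add_le_add hU hQ

section Hlen

variable (S : Type*) [CommRing S] {R : Type u} [Ring R] [Algebra S R] [IsArtinianRing S]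
  [Module.Finite S R]

variable {A A' B B' B'' : Type u}
  [AddCommGroup A] [Module R A] [AddCommGroup A'] [Module R A']
  [AddCommGroup B] [Module R B] [AddCommGroup B'] [Module R B'] [AddCommGroup B''] [Module R B'']

/-- Monotonicity of length in the target. -/
lemma hlen_le_of_injective [Module.Finite R A] [Module.Finite R B] [Module.Finite R B']
    (v : B →ₗ[R] B') (hv : Function.Injective v) : hlen S R A B ≤ hlen S R A B' := by
  letI := modS S R B
  haveI := towerS S R B
  letI := modS S R B'
  haveI := towerS S R B'
  unfold hlen
  have h : Module.length S (A →ₗ[R] B) ≤ Module.length S (A →ₗ[R] B') :=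
    Module.length_le_of_injective (postS S v (A := A)) (by
      intro f g hfg
      ext x
      exact hv (LinearMap.congr_fun hfg x))
  exact ENat.toNat_le_toNat h (len_ne_top S)

/-- Additivity given a lifting property. -/
lemma hlen_add_of_lift [Module.Finite R A] [Module.Finite R B] [Module.Finite R B']
    [Module.Finite R B'']
    (f : B' →ₗ[R] B) (g : B →ₗ[R] B'') (hf : Function.Injective f)
    (hfg : Function.Exact f g) (hlift : ∀ c : A →ₗ[R] B'', ∃ d : A →ₗ[R] B, g ∘ₗ d = c) :
    hlen S R A B = hlen S R A B' + hlen S R A B'' := by
  letI := modS S R B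
  haveI := towerS S R B
  letI := modS S R B'
  haveI := towerS S R B'
  letI := modS S R B''
  haveI := towerS S R B''
  unfold hlen
  have h := Module.length_eq_add_of_exact (R := S) (postS S f (A := A)) (postS S g (A := A))
    (by
      intro a b hab
      ext x
      exact hf (LinearMap.congr_fun hab x))
    (by
      intro c
      obtain ⟨d, hd⟩ := hlift c
      exact ⟨d, hd⟩)
    (by
      intro c
      constructor
      · intro hc
        have hc' : ∀ x, g (c x) = 0 := fun x => LinearMap.congr_fun hc x
        have hex : ∀ x, ∃ y, f y = c x := fun x => (hfg (c x)).mp (hc' x)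
        choose y hy using hex
        refine ⟨{ toFun := y, map_add' := ?_, map_smul' := ?_ }, ?_⟩
        · intro a b
          apply hf
          simp [hy]
        · intro r a
          apply hf
          simp [hy]
        · ext x
          exact hy x
      · rintro ⟨d, rfl⟩
        ext x
        exact (hfg _).mpr ⟨d x, rfl⟩)
  rw [h, ENat.toNat_add (len_ne_top S) (len_ne_top S)]

/-- Maps out of a finite power. -/
lemma hlen_pi_left (n : ℕ) [Module.Finite R A] [Module.Finite R B] :
    hlen S R (Fin n → A) B = n * hlen S R A B := by
  letI := modS S R B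
  haveI := towerS S R B
  unfold hlen
  have e : ((Fin n → A) →ₗ[R] B) ≃ₗ[S] (Fin n → (A →ₗ[R] B)) :=
    (LinearMap.lsum R (fun _ : Fin n => A) S).symm
  rw [e.length_eq, Module.length_pi_of_fintype]
  have hne : Module.length S (A →ₗ[R] B) ≠ ⊤ := len_ne_top S
  obtain ⟨m, hm⟩ := ENat.ne_top_iff_exists.mp hne
  rw [← hm]
  simp

/-- Maps out of a finite free module. -/
lemma hlen_free_left (n : ℕ) [Module.Finite R B] :
    hlen S R (Fin n → R) B = n * hlen S R R B := hlen_pi_left S n

/-- Monotonicity in the source along surjections. -/
lemma hlen_le_of_surjective [Module.Finite R A] [Module.Finite R A'] [Module.Finite R B]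
    (t : A →ₗ[R] A') (ht : Function.Surjective t) : hlen S R A' B ≤ hlen S R A B := by
  letI := modS S R B
  haveI := towerS S R B
  unfold hlen
  have h : Module.length S (A' →ₗ[R] B) ≤ Module.length S (A →ₗ[R] B) :=
    Module.length_le_of_injective (preS S t (B := B)) (by
      intro f g hfg
      ext x
      obtain ⟨y, rfl⟩ := ht x
      exact LinearMap.congr_fun hfg y)
  exact ENat.toNat_le_toNat h (len_ne_top S)

/-- Maps into a finite free power. -/
lemma hlen_free_right (n : ℕ) [Module.Finite R A] [Module.Finite R B] :
    hlen S R A (Fin n → B) = n * hlen S R A B := by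
  letI := modS S R B
  haveI := towerS S R B
  letI := modS S R (Fin n → B)
  haveI := towerS S R (Fin n → B)
  unfold hlen
  have e : (A →ₗ[R] (Fin n → B)) ≃ₗ[S] (Fin n → (A →ₗ[R] B)) :=
    { toFun := fun f i => (LinearMap.proj i) ∘ₗ f
      invFun := fun g => LinearMap.pi g
      map_add' := by
        intro f g
        rfl
      map_smul' := by
        intro c f
        ext i x
        rfl
      left_inv := by
        intro f
        ext x i
        rfl
      right_inv := by
        intro g
        ext i x
        rfl }
  rw [e.length_eq, Module.length_pi_of_fintype]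
  have hne : Module.length S (A →ₗ[R] B) ≠ ⊤ := len_ne_top S
  obtain ⟨m, hm⟩ := ENat.ne_top_iff_exists.mp hne
  rw [← hm]
  simp

/-- Additivity of the length of a module along a short exact sequence. -/
lemma hlen_ring_add [Module.Finite R B] [Module.Finite R B'] [Module.Finite R B'']
    (f : B' →ₗ[R] B) (g : B →ₗ[R] B'') (hf : Function.Injective f) (hg : Function.Surjective g)
    (hfg : Function.Exact f g) :
    hlen S R R B = hlen S R R B' + hlen S R R B'' :=
  hlen_add_of_exact_post S f g hf hg hfg

/-- The length of the maps from the ring is the length of the module. -/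
lemma hlen_ring_eq (B : Type u) [AddCommGroup B] [Module R B] :
    letI := modS S R B
    hlen S R R B = (Module.length S B).toNat := by
  letI := modS S R B
  haveI := towerS S R B
  unfold hlen
  rw [(LinearMap.ringLmapEquivSelf R S B).length_eq]

/-- Positivity of the length. -/
lemma hlen_ring_pos (B : Type u) [AddCommGroup B] [Module R B] [Module.Finite R B]
    [Nontrivial B] : 0 < hlen S R R B := by
  letI := modS S R B
  haveI := towerS S R B
  rw [hlen_ring_eq S B]
  have h1 : 0 < Module.length S B := Module.length_pos
  have h2 : Module.length S (R →ₗ[R] B) ≠ ⊤ := len_ne_top S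
  rw [(LinearMap.ringLmapEquivSelf R S B).length_eq] at h2
  obtain ⟨m, hm⟩ := ENat.ne_top_iff_exists.mp h2
  rw [← hm] at h1 ⊢
  simpa using h1

end Hlen

end Vale.Agent.Lib.P195F
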