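import Vale.Agent.Lib.P195F.Dual

/-!
Links of the minimal complete resolution over a local self-injective ring.
-/

set_option linter.style.haveILetI false
set_option linter.unusedVariables false

namespace Vale.Agent.Lib.P195F

open Vale.Agent.Lib.P195

universe u

variable {R : Type u} [Ring R]

/-- One step `0 → X → R^n → Y → 0` of a minimal complete resolution. -/
structure LinkData (R : Type u) [Ring R] (Y X : Type u) [AddCommGroup Y] [Module R Y] [AddCommGroup X] [Module R X] where
  n : ℕ
  ι : X →ₗ[R] (Fin n → R)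
  π : (Fin n → R) →ₗ[R] Y
  ι_inj : Function.Injective ι
  π_surj : Function.Surjective π
  exact : Function.Exact ι π
  rad_le : ∀ x i, ι x i ∈ Ring.jacobson R
  soc_le : ∀ v : Fin n → R, (∀ a ∈ Ring.jacobson R, a • v = 0) → π v = 0

/-- Finite nonzero modules without free summands. -/
structure Good (R : Type u) [Ring R] (X : Type u) [AddCommGroup X] [Module R X] : Prop where
  fin : Module.Finite R X
  nontriv : Nontrivial X
  func : ∀ (f : X →ₗ[R] R) (x : X), f x ∈ Ring.jacobson R

/-- A minimal generating family gives a minimal surjection from a free module. -/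
lemma cover_of_min (L : LSI R) {Y : Type u} [AddCommGroup Y] [Module R Y] {n : ℕ} (g : Fin n → Y)
    (hg : Submodule.span R (Set.range g) = ⊤)
    (hmin : ∀ m < n, ¬ ∃ g' : Fin m → Y, Submodule.span R (Set.range g') = ⊤) :
    ∃ π : (Fin n → R) →ₗ[R] Y, Function.Surjective π ∧
      ∀ v, π v = 0 → ∀ i, v i ∈ Ring.jacobson R := by
  classical
  refine ⟨Fintype.linearCombination R g, ?_, ?_⟩
  · rw [← LinearMap.range_eq_top, Fintype.range_linearCombination, hg]
  · intro v hv i
    by_contra hni
    obtain ⟨u, hu⟩ := L.unit (v i) hni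
    cases n with
    | zero => exact i.elim0
    | succ m =>
      apply hmin m (Nat.lt_succ_self m)
      refine ⟨g ∘ i.succAbove, ?_⟩
      rw [eq_top_iff, ← hg, Submodule.span_le]
      rintro _ ⟨k, rfl⟩
      have hmem : ∀ j, g (i.succAbove j) ∈ Submodule.span R (Set.range (g ∘ i.succAbove)) :=
        fun j => Submodule.subset_span ⟨j, rfl⟩
      rcases Fin.eq_self_or_eq_succAbove i k with rfl | ⟨j, rfl⟩
      · have h0 : v k • g k + ∑ j, v (k.succAbove j) • g (k.succAbove j) = 0 := by
          rw [← Fin.sum_univ_succAbove (fun l => v l • g l) k]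
          simpa [Fintype.linearCombination_apply] using hv
        have h1 : g k = -((↑u⁻¹ : R) • ∑ j, v (k.succAbove j) • g (k.succAbove j)) := by
          have h2 : v k • g k = -∑ j, v (k.succAbove j) • g (k.succAbove j) :=
            eq_neg_of_add_eq_zero_left h0
          have h3 := congrArg (fun z => (↑u⁻¹ : R) • z) h2
          simp only [smul_smul, ← hu, Units.inv_mul, one_smul, smul_neg] at h3
          exact h3
        rw [SetLike.mem_coe, h1]
        refine Submodule.neg_mem _ (Submodule.smul_mem _ _ (Submodule.sum_mem _ fun j _ => ?_))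
        exact Submodule.smul_mem _ _ (hmem j)
      · exact hmem j

/-- A minimal surjection from a free module. -/
lemma exists_min_cover (L : LSI R) (Y : Type u) [AddCommGroup Y] [Module R Y] [Module.Finite R Y] :
    ∃ (n : ℕ) (π : (Fin n → R) →ₗ[R] Y), Function.Surjective π ∧
      ∀ v, π v = 0 → ∀ i, v i ∈ Ring.jacobson R := by
  classical
  have hex : ∃ m, ∃ g : Fin m → Y, Submodule.span R (Set.range g) = ⊤ := by
    obtain ⟨m, g, hg⟩ := Module.Finite.exists_fin (R := R) (M := Y)
    exact ⟨m, g, hg⟩
  obtain ⟨g, hg⟩ := Nat.find_spec hex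
  exact ⟨_, cover_of_min L g hg (fun m hm => Nat.find_min hex hm)⟩

/-- The socle of a free module is in the kernel of a surjection onto a module without free
summands. -/
lemma soc_le_of_func (L : LSI R) {n : ℕ} {Y : Type u} [AddCommGroup Y] [Module R Y]
    (π : (Fin n → R) →ₗ[R] Y) (hY : ∀ (f : Y →ₗ[R] R) (x : Y), f x ∈ Ring.jacobson R)
    (v : Fin n → R) (hv : ∀ a ∈ Ring.jacobson R, a • v = 0) : π v = 0 := by
  classical
  by_contra h
  obtain ⟨f, hf⟩ := L.exists_functional (π v) h
  have hsum : f (π v) = ∑ i, v i * f (π (fun j => if i = j then 1 else 0)) := by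
    have := LinearMap.pi_apply_eq_sum_univ (f ∘ₗ π) v
    simpa using this
  apply hf
  rw [hsum]
  refine Finset.sum_eq_zero fun i _ => ?_
  refine L.soc_mul (fun a ha => ?_) (hY f _)
  have := congrFun (hv a ha) i
  simpa using this

/-- The free module has nonzero socle if the rank is positive: forward link. -/
theorem exists_link_forward (L : LSI R) [IsArtinianRing R] (Y : Type u) [AddCommGroup Y]
    [Module R Y] (hY : Good R Y) :
    ∃ (X : Type u) (_ : AddCommGroup X) (_ : Module R X), Nonempty (LinkData R Y X) ∧ Good R X := by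
  classical
  haveI := hY.fin
  haveI := hY.nontriv
  haveI := L.inj
  haveI : Nontrivial R := L.nontriv
  obtain ⟨n, π, hπ, hk⟩ := exists_min_cover L Y
  have hsoc := soc_le_of_func L π hY.func
  refine ⟨LinearMap.ker π, inferInstance, inferInstance, ⟨⟨n, (LinearMap.ker π).subtype, π,
    Submodule.subtype_injective _, hπ, LinearMap.exact_subtype_ker_map π, fun x i => hk _ x.2 i,
    hsoc⟩⟩, inferInstance, ?_, ?_⟩
  · -- nontrivial
    obtain ⟨y, hy⟩ := exists_ne (0 : Y)
    obtain ⟨w, rfl⟩ := hπ y
    have hne : ∃ i : Fin n, True := by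
      by_contra hc
      push Not at hc
      apply hy
      have : w = 0 := by
        ext i
        exact (hc i).elim
      rw [this, map_zero]
    obtain ⟨i, -⟩ := hne
    obtain ⟨s, hs0, hs⟩ := L.exists_soc_ring
    let v : Fin n → R := Pi.single i s
    have hv : ∀ a ∈ Ring.jacobson R, a • v = 0 := by
      intro a ha
      ext j
      by_cases hj : j = i
      · subst hj
        simp [v, hs a ha]
      · simp [v, hj]
    refine ⟨⟨⟨v, hsoc v hv⟩, 0, fun h => hs0 ?_⟩⟩
    have h1 := congrArg (fun z : LinearMap.ker π => (z : Fin n → R) i) h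
    simpa [v] using h1
  · -- functionals land in the radical
    intro f x
    obtain ⟨F, hF⟩ := Module.Injective.out (LinearMap.ker π).subtype
      (Submodule.subtype_injective _) f
    rw [← hF x]
    have hsum := LinearMap.pi_apply_eq_sum_univ F ((LinearMap.ker π).subtype x)
    rw [hsum]
    refine Submodule.sum_mem _ fun i _ => ?_
    exact Ideal.mul_mem_right _ _ (hk _ x.2 i)

/-- An injection into a free module exists. -/
lemma exists_embedding (L : LSI R) [IsArtinianRing R] (X : Type u) [AddCommGroup X] [Module R X]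
    [Module.Finite R X] : ∃ (n : ℕ) (ι : X →ₗ[R] (Fin n → R)), Function.Injective ι := by
  classical
  haveI : IsArtinian R X := inferInstance
  let 𝒮 : Set (Submodule R X) := {K | ∃ (n : ℕ) (φ : X →ₗ[R] (Fin n → R)), LinearMap.ker φ = K}
  have hne : 𝒮.Nonempty := ⟨_, 0, 0, rfl⟩
  obtain ⟨K, ⟨n, φ, hφ⟩, hmin⟩ := (wellFounded_lt (α := Submodule R X)).has_min 𝒮 hne
  refine ⟨n, φ, ?_⟩
  rw [← LinearMap.ker_eq_bot, hφ]
  by_contra hK
  obtain ⟨x, hx, hx0⟩ := (Submodule.ne_bot_iff K).mp hK
  obtain ⟨f, hf⟩ := L.exists_functional x hx0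
  let φ' : X →ₗ[R] (Fin (n + 1) → R) :=
    LinearMap.pi (Fin.cons f (fun i => LinearMap.proj i ∘ₗ φ))
  have hle : LinearMap.ker φ' ≤ K := by
    intro y hy
    rw [← hφ, LinearMap.mem_ker]
    ext i
    have := congrFun (LinearMap.mem_ker.mp hy) i.succ
    simpa [φ'] using this
  have hlt : LinearMap.ker φ' < K := by
    refine lt_of_le_of_ne hle fun h => hf ?_
    rw [← h] at hx
    have := congrFun (LinearMap.mem_ker.mp hx) 0
    simpa [φ'] using this
  exact hmin _ ⟨n + 1, φ', rfl⟩ hlt

/-- Minimality of an embedding into a free module forces functionals on the cokernel to land in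
the radical. -/
lemma func_of_min (L : LSI R) {X Y : Type u} [AddCommGroup X] [Module R X] [AddCommGroup Y]
    [Module R Y] {n : ℕ} (ι : X →ₗ[R] (Fin n → R)) (hι : Function.Injective ι)
    (hmin : ∀ m < n, ¬ ∃ ι' : X →ₗ[R] (Fin m → R), Function.Injective ι')
    (π : (Fin n → R) →ₗ[R] Y) (hπ : Function.Surjective π) (hexact : Function.Exact ι π)
    (f : Y →ₗ[R] R) (y : Y) : f y ∈ Ring.jacobson R := by
  classical
  obtain ⟨w, rfl⟩ := hπ y
  by_contra hn'
  -- some coordinate functional is a unit
  have hsum := LinearMap.pi_apply_eq_sum_univ (f ∘ₗ π) w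
  have hi : ∃ i, (f ∘ₗ π) (fun j => if i = j then 1 else 0) ∉ Ring.jacobson R := by
    by_contra hc
    push Not at hc
    apply hn'
    have : f (π w) = (f ∘ₗ π) w := rfl
    rw [this, hsum]
    exact Submodule.sum_mem _ fun i _ => Ideal.mul_mem_left _ _ (hc i)
  obtain ⟨i, hi⟩ := hi
  obtain ⟨u, hu⟩ := L.unit _ hi
  have hvan : ∀ x, (f ∘ₗ π) (ι x) = 0 := by
    intro x
    have : π (ι x) = 0 := (hexact _).mpr ⟨x, rfl⟩
    simp [this]
  cases n with
  | zero => exact i.elim0
  | succ m =>
    apply hmin m (Nat.lt_succ_self m)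
    -- forget the coordinate `i`
    refine ⟨(LinearMap.funLeft R R i.succAbove) ∘ₗ ι, ?_⟩
    rw [injective_iff_map_eq_zero]
    intro x hx
    apply hι
    rw [map_zero]
    have hcoord : ∀ j, ι x (i.succAbove j) = 0 := fun j => congrFun hx j
    have hsum2 := LinearMap.pi_apply_eq_sum_univ (f ∘ₗ π) (ι x)
    rw [hvan x] at hsum2
    rw [Fin.sum_univ_succAbove _ i] at hsum2
    have hx2 : ι x i * (f ∘ₗ π) (fun j => if i = j then 1 else 0) = 0 := by
      simpa [hcoord] using hsum2.symm
    rw [← hu] at hx2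
    have hx3 : ι x i = 0 := by
      have := congrArg (fun z => z * (↑u⁻¹ : R)) hx2
      simpa [mul_assoc] using this
    ext j
    rcases Fin.eq_self_or_eq_succAbove i j with rfl | ⟨l, rfl⟩
    · simpa using hx3
    · simpa using hcoord l

/-- Backward link. -/
theorem exists_link_backward (L : LSI R) [IsArtinianRing R] (X : Type u) [AddCommGroup X]
    [Module R X] (hX : Good R X) :
    ∃ (Y : Type u) (_ : AddCommGroup Y) (_ : Module R Y), Nonempty (LinkData R Y X) ∧ Good R Y := by
  classical
  haveI := hX.fin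
  haveI := hX.nontriv
  haveI : Nontrivial R := L.nontriv
  have hex : ∃ n, ∃ ι : X →ₗ[R] (Fin n → R), Function.Injective ι := exists_embedding L X
  obtain ⟨ι, hι⟩ := Nat.find_spec hex
  have hmin := fun m (hm : m < Nat.find hex) => Nat.find_min hex hm
  generalize Nat.find hex = n at ι hι hmin
  let W := LinearMap.range ι
  let Y := (Fin n → R) ⧸ W
  let π : (Fin n → R) →ₗ[R] Y := W.mkQ
  have hπ : Function.Surjective π := Submodule.mkQ_surjective W
  have hexact : Function.Exact ι π := LinearMap.exact_map_mkQ_range ι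
  have hfunc : ∀ (f : Y →ₗ[R] R) (y : Y), f y ∈ Ring.jacobson R :=
    func_of_min L ι hι hmin π hπ hexact
  have hsoc := soc_le_of_func L π hfunc
  refine ⟨Y, inferInstance, inferInstance, ⟨⟨n, ι, π, hι, hπ, hexact,
    fun x i => hX.func (LinearMap.proj i ∘ₗ ι) x, hsoc⟩⟩, inferInstance, ?_, hfunc⟩
  -- the quotient is nontrivial
  by_contra hnt
  rw [not_nontrivial_iff_subsingleton] at hnt
  -- then `ι` is surjective, and coordinates give a surjection onto the ring
  obtain ⟨x, hx⟩ := exists_ne (0 : X)
  have hιx : ι x ≠ 0 := fun h => hx (hι (by rw [h, map_zero]))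
  obtain ⟨i, -⟩ : ∃ i, ι x i ≠ 0 := by
    by_contra hc
    push Not at hc
    exact hιx (funext hc)
  have hsurj : ∃ x', ι x' = Pi.single i 1 := by
    have h0 : π (Pi.single i 1) = 0 := Subsingleton.elim _ _
    exact (hexact _).mp h0
  obtain ⟨x', hx'⟩ := hsurj
  have hmem := hX.func (LinearMap.proj i ∘ₗ ι) x'
  have h1 : (LinearMap.proj i ∘ₗ ι) x' = 1 := by
    simp [hx']
  rw [h1] at hmem
  exact L.one_not_mem hmem

end Vale.Agent.Lib.P195F
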