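import Vale.Agent.Lib.P195F.Hom

/-!
The two layer inequalities.
-/

set_option linter.style.haveILetI false
set_option linter.unusedVariables false

namespace Vale.Agent.Lib.P195F

open Vale.Agent.Lib.P195

universe u

section Helpers

variable {R : Type*} [Ring R]
variable {A B C D : Type*} [AddCommGroup A] [Module R A] [AddCommGroup B] [Module R B]
  [AddCommGroup C] [Module R C] [AddCommGroup D] [Module R D]

/-- Corestriction along an injection. -/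
lemma exists_cod (j : A →ₗ[R] B) (q : B →ₗ[R] C) (hj : Function.Injective j)
    (hex : Function.Exact j q) (φ : D →ₗ[R] B) (h : ∀ x, q (φ x) = 0) :
    ∃ c : D →ₗ[R] A, ∀ x, j (c x) = φ x := by
  have hex' : ∀ x, ∃ y, j y = φ x := fun x => (hex (φ x)).mp (h x)
  choose y hy using hex'
  refine ⟨{ toFun := y, map_add' := ?_, map_smul' := ?_ }, hy⟩
  · intro a b
    apply hj
    simp [hy]
  · intro r a
    apply hj
    simp [hy]

/-- Descent along a surjection. -/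
lemma exists_desc (i : A →ₗ[R] B) (p : B →ₗ[R] C) (hp : Function.Surjective p)
    (hex : Function.Exact i p) (φ : B →ₗ[R] D) (h : ∀ x, φ (i x) = 0) :
    ∃ f : C →ₗ[R] D, ∀ x, f (p x) = φ x := by
  have hker : ∀ x y, p x = p y → φ x = φ y := by
    intro x y hxy
    have : p (x - y) = 0 := by simp [hxy]
    obtain ⟨z, hz⟩ := (hex (x - y)).mp this
    have hz' := h z
    rw [hz, map_sub, sub_eq_zero] at hz'
    exact hz'
  choose σ hσ using hp
  refine ⟨{ toFun := fun a => φ (σ a), map_add' := ?_, map_smul' := ?_ }, ?_⟩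
  · intro a b
    rw [← map_add]
    apply hker
    simp [hσ]
  · intro r a
    simp only [RingHom.id_apply]
    rw [← map_smul]
    apply hker
    simp [hσ]
  · intro x
    exact hker _ _ (hσ _)

end Helpers

variable (S : Type*) [CommRing S] {R : Type u} [Ring R] [Algebra S R] [IsArtinianRing S]
  [Module.Finite S R]

/-- The layer inequality in the second variable. -/
theorem star_one {N Q N' Q' X A₁ A₂ T₀ T₁ : Type u}
    [AddCommGroup N] [Module R N] [AddCommGroup Q] [Module R Q]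
    [AddCommGroup N'] [Module R N'] [AddCommGroup Q'] [Module R Q']
    [AddCommGroup X] [Module R X] [AddCommGroup A₁] [Module R A₁] [AddCommGroup A₂] [Module R A₂]
    [AddCommGroup T₀] [Module R T₀] [AddCommGroup T₁] [Module R T₁]
    [Module.Finite R N] [Module.Finite R Q] [Module.Finite R N'] [Module.Finite R T₀]
    [Module.Finite R T₁] [Module.Finite R A₂] [Module.Projective R Q']
    (i : N →ₗ[R] Q) (hi : ∀ n, i n ∈ rad R Q)
    (π' : Q' →ₗ[R] N) (hπ' : Function.Surjective π') (i' : N' →ₗ[R] Q')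
    (hex' : Function.Exact i' π')
    (j₁ : A₁ →ₗ[R] X) (hj₁ : Function.Injective j₁) (q₀ : X →ₗ[R] T₀)
    (hex₀ : Function.Exact j₁ q₀)
    (j₂ : A₂ →ₗ[R] A₁) (hj₂ : Function.Injective j₂) (q₁ : A₁ →ₗ[R] T₁)
    (hq₁ : Function.Surjective q₁) (hex₁ : Function.Exact j₂ q₁)
    (hJ : ∀ a ∈ Ring.jacobson R, ∀ x : A₁, q₁ (a • x) = 0)
    (hext : ∀ f : N →ₗ[R] X, ∃ h : Q →ₗ[R] X, h ∘ₗ i = f) :
    hlen S R N T₁ ≤ hlen S R Q T₀ + hlen S R N' A₂ := by
  classical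
  letI := modS S R X
  haveI := towerS S R X
  letI := modS S R A₁
  haveI := towerS S R A₁
  letI := modS S R A₂
  haveI := towerS S R A₂
  letI := modS S R T₀
  haveI := towerS S R T₀
  letI := modS S R T₁
  haveI := towerS S R T₁
  unfold hlen
  let G : Submodule S ((N →ₗ[R] T₁) × (Q' →ₗ[R] A₁) × (N' →ₗ[R] A₂)) :=
    { carrier := {p | (∀ x, p.1 (π' x) = q₁ (p.2.1 x)) ∧ (∀ x, p.2.1 (i' x) = j₂ (p.2.2 x))}
      add_mem' := by
        rintro p p' ⟨h1, h2⟩ ⟨h1', h2'⟩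
        refine ⟨fun x => ?_, fun x => ?_⟩
        · simp [h1, h1']
        · simp [h2, h2']
      zero_mem' := by
        refine ⟨fun x => ?_, fun x => ?_⟩ <;> simp
      smul_mem' := by
        rintro c p ⟨h1, h2⟩
        refine ⟨fun x => ?_, fun x => ?_⟩
        · simp [h1, LinearMap.map_smul_of_tower]
        · simp [h2, LinearMap.map_smul_of_tower] }
  let W : Submodule S ((N →ₗ[R] T₁) × (Q →ₗ[R] X) × (Q' →ₗ[R] A₁)) :=
    { carrier := {p | (∀ x, p.1 (π' x) = q₁ (p.2.2 x)) ∧ (∀ x, p.2.1 (i (π' x)) = j₁ (p.2.2 x))}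
      add_mem' := by
        rintro p p' ⟨h1, h2⟩ ⟨h1', h2'⟩
        refine ⟨fun x => ?_, fun x => ?_⟩
        · simp [h1, h1']
        · simp [h2, h2']
      zero_mem' := by
        refine ⟨fun x => ?_, fun x => ?_⟩ <;> simp
      smul_mem' := by
        rintro c p ⟨h1, h2⟩
        refine ⟨fun x => ?_, fun x => ?_⟩
        · simp [h1, LinearMap.map_smul_of_tower]
        · simp [h2, LinearMap.map_smul_of_tower] }
  let e : G →ₗ[S] (N →ₗ[R] T₁) := (LinearMap.fst S _ _) ∘ₗ G.subtype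
  let r : G →ₗ[S] (N' →ₗ[R] A₂) :=
    (LinearMap.snd S _ _) ∘ₗ (LinearMap.snd S _ _) ∘ₗ G.subtype
  let ρ : W →ₗ[S] (N →ₗ[R] T₁) := (LinearMap.fst S _ _) ∘ₗ W.subtype
  let a : W →ₗ[S] (Q →ₗ[R] T₀) :=
    (postS S q₀ (A := Q)) ∘ₗ (LinearMap.fst S _ _) ∘ₗ (LinearMap.snd S _ _) ∘ₗ W.subtype
  have he : Function.Surjective e := by
    intro f
    obtain ⟨g, hg⟩ := Module.projective_lifting_property q₁ (f ∘ₗ π') hq₁
    have hg' : ∀ x, q₁ (g x) = f (π' x) := fun x => LinearMap.congr_fun hg x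
    obtain ⟨c, hc⟩ := exists_cod j₂ q₁ hj₂ hex₁ (g ∘ₗ i') (by
      intro x
      have : π' (i' x) = 0 := (hex' _).mpr ⟨x, rfl⟩
      simp [hg', this])
    refine ⟨⟨(f, g, c), fun x => (hg' x).symm, fun x => (hc x).symm⟩, rfl⟩
  have h1 : LinearMap.ker a ≤ LinearMap.ker ρ := by
    rintro ⟨⟨f, h, g⟩, hW1, hW2⟩ hk
    have hk' : ∀ y, q₀ (h y) = 0 := fun y => LinearMap.congr_fun hk y
    -- the image of the radical
    have hrad : ∀ y ∈ rad R Q, ∃ w, h y = j₁ w ∧ q₁ w = 0 := by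
      intro y hy
      induction hy using Submodule.smul_induction_on' with
      | smul a' ha' y₀ _ =>
        obtain ⟨w₀, hw₀⟩ := (hex₀ (h y₀)).mp (hk' y₀)
        exact ⟨a' • w₀, by rw [map_smul, map_smul, hw₀], hJ a' ha' w₀⟩
      | add y₁ _ y₂ _ h₁ h₂ =>
        obtain ⟨w₁, hw₁, hq₁'⟩ := h₁
        obtain ⟨w₂, hw₂, hq₂'⟩ := h₂
        exact ⟨w₁ + w₂, by rw [map_add, map_add, hw₁, hw₂], by rw [map_add, hq₁', hq₂', add_zero]⟩
    show f = 0
    ext x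
    obtain ⟨z, rfl⟩ := hπ' x
    obtain ⟨w, hw, hqw⟩ := hrad _ (hi (π' z))
    have hgz : g z = w := hj₁ (by rw [← hW2 z, hw])
    show f (π' z) = 0
    rw [hW1 z, hgz, hqw]
  have h2 : ∀ g, r g = 0 → e g ∈ LinearMap.range ρ := by
    rintro ⟨⟨f, g, c⟩, hG1, hG2⟩ hr
    have hc : c = 0 := hr
    subst hc
    have hgi : ∀ x, g (i' x) = 0 := fun x => by simpa using hG2 x
    obtain ⟨f₀, hf₀⟩ := exists_desc i' π' hπ' hex' g hgi
    obtain ⟨h, hh⟩ := hext (j₁ ∘ₗ f₀)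
    have hh' : ∀ x, h (i x) = j₁ (f₀ x) := fun x => LinearMap.congr_fun hh x
    refine ⟨⟨(f, h, g), hG1, fun x => ?_⟩, rfl⟩
    show h (i (π' x)) = j₁ (g x)
    rw [hh', hf₀]
  have key := count_le e he r a ρ h1 h2
  have hA : Module.length S (Q →ₗ[R] T₀) ≠ ⊤ := len_ne_top S
  have hD : Module.length S (N' →ₗ[R] A₂) ≠ ⊤ := len_ne_top S
  have := ENat.toNat_le_toNat key (by simp [hA, hD])
  rwa [ENat.toNat_add hA hD] at this

/-- The layer inequality in the first variable. -/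
theorem star_two {Y Z Z' Z'' Q Q' A₁ A₂ T₀ T₁ : Type u}
    [AddCommGroup Y] [Module R Y] [AddCommGroup Z] [Module R Z]
    [AddCommGroup Z'] [Module R Z'] [AddCommGroup Z''] [Module R Z'']
    [AddCommGroup Q] [Module R Q] [AddCommGroup Q'] [Module R Q']
    [AddCommGroup A₁] [Module R A₁] [AddCommGroup A₂] [Module R A₂]
    [AddCommGroup T₀] [Module R T₀] [AddCommGroup T₁] [Module R T₁]
    [Module.Finite R T₁] [Module.Finite R T₀] [Module.Finite R A₂] [Module.Finite R Z]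
    [Module.Finite R Z''] [Module.Finite R Q]
    (j₁ : A₁ →ₗ[R] Y) (q₀ : Y →ₗ[R] T₀) (hq₀ : Function.Surjective q₀)
    (hex₀ : Function.Exact j₁ q₀)
    (j₂ : A₂ →ₗ[R] A₁) (q₁ : A₁ →ₗ[R] T₁) (hq₁ : Function.Surjective q₁)
    (hex₁ : Function.Exact j₂ q₁)
    (hT₁ : ∀ a ∈ Ring.jacobson R, ∀ t : T₁, a • t = 0)
    (u' : Z →ₗ[R] Q') (hu' : Function.Injective u') (v' : Q' →ₗ[R] Z'')
    (hex' : Function.Exact u' v')
    (hinj : ∀ φ : A₁ →ₗ[R] Q', ∃ g : Y →ₗ[R] Q', g ∘ₗ j₁ = φ)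
    (v : Q →ₗ[R] Z)
    (hsoc : ∀ y : Q, (∀ a ∈ Ring.jacobson R, a • y = 0) → v y = 0)
    (hlift : ∀ g : Y →ₗ[R] Z, ∃ h : Y →ₗ[R] Q, v ∘ₗ h = g) :
    hlen S R T₁ Z ≤ hlen S R A₂ Q + hlen S R T₀ Z'' := by
  classical
  letI := modS S R Z
  haveI := towerS S R Z
  letI := modS S R Z''
  haveI := towerS S R Z''
  letI := modS S R Q
  haveI := towerS S R Q
  letI := modS S R Q'
  haveI := towerS S R Q'
  unfold hlen
  let G : Submodule S ((T₁ →ₗ[R] Z) × (Y →ₗ[R] Q') × (T₀ →ₗ[R] Z'')) :=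
    { carrier := {p | (∀ x, p.2.1 (j₁ x) = u' (p.1 (q₁ x))) ∧ (∀ y, v' (p.2.1 y) = p.2.2 (q₀ y))}
      add_mem' := by
        rintro p p' ⟨h1, h2⟩ ⟨h1', h2'⟩
        refine ⟨fun x => ?_, fun x => ?_⟩
        · simp [h1, h1']
        · simp [h2, h2']
      zero_mem' := by
        refine ⟨fun x => ?_, fun x => ?_⟩ <;> simp
      smul_mem' := by
        rintro c p ⟨h1, h2⟩
        refine ⟨fun x => ?_, fun x => ?_⟩
        · simp [h1, LinearMap.map_smul_of_tower]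
        · simp [h2, LinearMap.map_smul_of_tower] }
  let W : Submodule S ((T₁ →ₗ[R] Z) × (Y →ₗ[R] Q)) :=
    { carrier := {p | ∀ x, v (p.2 (j₁ x)) = p.1 (q₁ x)}
      add_mem' := by
        rintro p p' h1 h1' x
        have h2 : v (p.2 (j₁ x)) = p.1 (q₁ x) := h1 x
        have h2' : v (p'.2 (j₁ x)) = p'.1 (q₁ x) := h1' x
        simp [h2, h2']
      zero_mem' := by
        intro x
        simp
      smul_mem' := by
        rintro c p h1 x
        have h2 : v (p.2 (j₁ x)) = p.1 (q₁ x) := h1 x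
        simp [h2, LinearMap.map_smul_of_tower] }
  let e : G →ₗ[S] (T₁ →ₗ[R] Z) := (LinearMap.fst S _ _) ∘ₗ G.subtype
  let r : G →ₗ[S] (T₀ →ₗ[R] Z'') :=
    (LinearMap.snd S _ _) ∘ₗ (LinearMap.snd S _ _) ∘ₗ G.subtype
  let ρ : W →ₗ[S] (T₁ →ₗ[R] Z) := (LinearMap.fst S _ _) ∘ₗ W.subtype
  let a : W →ₗ[S] (A₂ →ₗ[R] Q) :=
    (preS S (j₁ ∘ₗ j₂) (B := Q)) ∘ₗ (LinearMap.snd S _ _) ∘ₗ W.subtype
  have he : Function.Surjective e := by
    intro f
    obtain ⟨g, hg⟩ := hinj (u' ∘ₗ f ∘ₗ q₁)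
    have hg' : ∀ x, g (j₁ x) = u' (f (q₁ x)) := fun x => LinearMap.congr_fun hg x
    obtain ⟨c, hc⟩ := exists_desc j₁ q₀ hq₀ hex₀ (v' ∘ₗ g) (by
      intro x
      have : v' (u' (f (q₁ x))) = 0 := (hex' _).mpr ⟨_, rfl⟩
      simp [hg', this])
    refine ⟨⟨(f, g, c), hg', fun y => (hc y).symm⟩, rfl⟩
  have h1 : LinearMap.ker a ≤ LinearMap.ker ρ := by
    rintro ⟨⟨f, h⟩, hW⟩ hk
    have hk' : ∀ w, h (j₁ (j₂ w)) = 0 := fun w => LinearMap.congr_fun hk w
    obtain ⟨φ, hφ⟩ := exists_desc j₂ q₁ hq₁ hex₁ (h ∘ₗ j₁) hk'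
    show f = 0
    ext t
    obtain ⟨x, rfl⟩ := hq₁ t
    show f (q₁ x) = 0
    rw [← hW x]
    have hφ' : φ (q₁ x) = h (j₁ x) := hφ x
    rw [← hφ']
    apply hsoc
    intro a' ha'
    rw [← map_smul, hT₁ a' ha', map_zero]
  have h2 : ∀ g, r g = 0 → e g ∈ LinearMap.range ρ := by
    rintro ⟨⟨f, g, c⟩, hG1, hG2⟩ hr
    have hc : c = 0 := hr
    subst hc
    have hvg : ∀ y, v' (g y) = 0 := fun y => by simpa using hG2 y
    obtain ⟨g₀, hg₀⟩ := exists_cod u' v' hu' hex' g hvg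
    obtain ⟨h, hh⟩ := hlift g₀
    have hh' : ∀ x, v (h x) = g₀ x := fun x => LinearMap.congr_fun hh x
    refine ⟨⟨(f, h), fun x => ?_⟩, rfl⟩
    show v (h (j₁ x)) = f (q₁ x)
    rw [hh']
    apply hu'
    rw [hg₀, hG1 x]
  have key := count_le e he r a ρ h1 h2
  have hA : Module.length S (A₂ →ₗ[R] Q) ≠ ⊤ := len_ne_top S
  have hD : Module.length S (T₀ →ₗ[R] Z'') ≠ ⊤ := len_ne_top S
  have := ENat.toNat_le_toNat key (by simp [hA, hD])
  rwa [ENat.toNat_add hA hD] at this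

end Vale.Agent.Lib.P195F
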