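import Vale.Agent.Lib.P195F.Link

/-!
Counts through the top and the socle of the modules of a link.
-/

set_option linter.style.haveILetI false
set_option linter.unusedVariables false

namespace Vale.Agent.Lib.P195F

open Vale.Agent.Lib.P195

universe u

section Plain

variable {R : Type u} [Ring R]

/-- A vector with coordinates in the radical lies in the radical. -/
lemma mem_rad_of_coords {n : ℕ} (v : Fin n → R) (h : ∀ i, v i ∈ Ring.jacobson R) :
    v ∈ rad R (Fin n → R) := by
  classical
  rw [pi_eq_sum_univ v]
  refine Submodule.sum_mem _ fun i _ => ?_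
  exact Submodule.smul_mem_smul (h i) trivial

/-- Coordinates of a vector in the radical lie in the radical. -/
lemma coords_of_mem_rad {n : ℕ} (v : Fin n → R) (h : v ∈ rad R (Fin n → R)) (i : Fin n) :
    v i ∈ Ring.jacobson R := by
  induction h using Submodule.smul_induction_on' with
  | smul a ha w _ => exact Ideal.mul_mem_right _ _ ha
  | add x _ y _ hx hy => exact (Ring.jacobson R).add_mem hx hy

/-- The top of a module with a minimal free cover. -/
lemma exists_top_equiv {n : ℕ} {Y : Type u} [AddCommGroup Y] [Module R Y]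
    (π : (Fin n → R) →ₗ[R] Y) (hπ : Function.Surjective π)
    (hk : ∀ v, π v = 0 → ∀ i, v i ∈ Ring.jacobson R) :
    Nonempty ((Y ⧸ rad R Y) ≃ₗ[R] (Fin n → resid R)) := by
  classical
  let χ : (Fin n → R) →ₗ[R] (Y ⧸ rad R Y) := (rad R Y).mkQ ∘ₗ π
  let Ψ : (Fin n → R) →ₗ[R] (Fin n → resid R) :=
    LinearMap.pi fun i => (Ring.jacobson R).mkQ ∘ₗ LinearMap.proj i
  have hχ : Function.Surjective χ := (Submodule.mkQ_surjective _).comp hπ
  have hΨ : Function.Surjective Ψ := by
    intro t
    choose w hw using fun i => Submodule.mkQ_surjective (Ring.jacobson R) (t i)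
    exact ⟨w, funext fun i => hw i⟩
  have hker : LinearMap.ker χ = LinearMap.ker Ψ := by
    ext v
    constructor
    · intro hv
      have hv' : π v ∈ rad R Y := by
        have : (rad R Y).mkQ (π v) = 0 := hv
        simpa [Submodule.Quotient.mk_eq_zero] using this
      have hmap : Submodule.map π (rad R (Fin n → R)) = rad R Y := by
        rw [Submodule.map_smul'', Submodule.map_top, LinearMap.range_eq_top.mpr hπ]
      rw [← hmap] at hv'
      obtain ⟨w, hw, hwv⟩ := hv'
      have hd : π (v - w) = 0 := by rw [map_sub, hwv, sub_self]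
      rw [LinearMap.mem_ker]
      ext i
      have h1 := hk _ hd i
      have h2 := coords_of_mem_rad w hw i
      have h3 : v i ∈ Ring.jacobson R := by
        have := (Ring.jacobson R).add_mem h1 h2
        simpa using this
      exact (Submodule.Quotient.mk_eq_zero _).mpr h3
    · intro hv
      have hcoord : ∀ i, v i ∈ Ring.jacobson R := by
        intro i
        have := congrFun (LinearMap.mem_ker.mp hv) i
        exact (Submodule.Quotient.mk_eq_zero _).mp this
      rw [LinearMap.mem_ker]
      show (rad R Y).mkQ (π v) = 0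
      have : π v ∈ rad R Y := map_mem_rad π (mem_rad_of_coords v hcoord)
      simpa [Submodule.Quotient.mk_eq_zero] using this
  exact ⟨(χ.quotKerEquivOfSurjective hχ).symm.trans
    ((Submodule.quotEquivOfEq _ _ hker).trans (Ψ.quotKerEquivOfSurjective hΨ))⟩

/-- The residue module is killed by the radical. -/
lemma resid_killed (a : R) (ha : a ∈ Ring.jacobson R) (t : resid R) : a • t = 0 := by
  obtain ⟨x, rfl⟩ := Submodule.Quotient.mk_surjective _ t
  rw [← Submodule.Quotient.mk_smul, Submodule.Quotient.mk_eq_zero]
  exact Ideal.mul_mem_right _ _ ha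

/-- The top of a module is killed by the radical. -/
lemma top_killed {Y : Type u} [AddCommGroup Y] [Module R Y] (a : R) (ha : a ∈ Ring.jacobson R)
    (t : Y ⧸ rad R Y) : a • t = 0 := by
  obtain ⟨x, rfl⟩ := Submodule.Quotient.mk_surjective _ t
  rw [← Submodule.Quotient.mk_smul, Submodule.Quotient.mk_eq_zero]
  exact Submodule.smul_mem_smul ha trivial

/-- The second radical power of a submodule of the radical of a free module is killed by the
radical, if the fourth power of the radical vanishes. -/
lemma rad_rad_killed (L : LSI R) {X : Type u} [AddCommGroup X] [Module R X] {n : ℕ}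
    (ι : X →ₗ[R] (Fin n → R)) (hι : Function.Injective ι)
    (hrad : ∀ x i, ι x i ∈ Ring.jacobson R) (a : R) (ha : a ∈ Ring.jacobson R)
    (y : rad R (rad R X)) : a • y = 0 := by
  have aux : ∀ b ∈ Ring.jacobson R, ∀ x ∈ rad R X, a • b • x = 0 := by
    intro b hb x hx
    induction hx using Submodule.smul_induction_on' with
    | smul c hc w _ =>
      apply hι
      rw [map_zero]
      ext i
      simp only [map_smul, Pi.smul_apply, smul_eq_mul, Pi.zero_apply]
      have := L.four a ha b hb c hc _ (hrad w i)
      simpa [mul_assoc] using this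
    | add z₁ _ z₂ _ h1 h2 =>
      rw [smul_add, smul_add, h1, h2, add_zero]
  obtain ⟨y, hy⟩ := y
  apply Subtype.ext
  change a • y = 0
  induction hy using Submodule.smul_induction_on' with
  | smul b hb z _ =>
    apply Subtype.ext
    exact aux b hb z.1 z.2
  | add y₁ _ y₂ _ h1 h2 =>
    rw [smul_add, h1, h2, add_zero]

end Plain

section Count

variable (S : Type*) [CommRing S] {R : Type u} [Ring R] [Algebra S R] [IsArtinianRing S]
  [Module.Finite S R]

/-- Count through a minimal free cover. -/
lemma hlen_cover_free {n : ℕ} {Y B : Type u} [AddCommGroup Y] [Module R Y] [AddCommGroup B]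
    [Module R B] [Module.Finite R B]
    (π : (Fin n → R) →ₗ[R] Y) (hπ : Function.Surjective π)
    (hk : ∀ v, π v = 0 → ∀ i, v i ∈ Ring.jacobson R)
    (hB : ∀ a ∈ Ring.jacobson R, ∀ y : B, a • y = 0) :
    hlen S R Y B = n * hlen S R R B := by
  rw [hlen_cover S π hπ (fun v hv => mem_rad_of_coords v (hk v hv)) B hB, hlen_free_left S n]

/-- Count through the socle of a free module. -/
lemma hlen_hull (L : LSI R) [IsArtinianRing R] {n : ℕ} {Y X B : Type u} [AddCommGroup Y]
    [Module R Y] [AddCommGroup X] [Module R X] [AddCommGroup B] [Module R B] [Module.Finite R B]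
    (ι : X →ₗ[R] (Fin n → R)) (hι : Function.Injective ι) (π : (Fin n → R) →ₗ[R] Y)
    (hex : Function.Exact ι π)
    (hsoc : ∀ v : Fin n → R, (∀ a ∈ Ring.jacobson R, a • v = 0) → π v = 0)
    (hB : ∀ a ∈ Ring.jacobson R, ∀ y : B, a • y = 0) :
    hlen S R B X = n * hlen S R R B := by
  have h1 : hlen S R B X = hlen S R B (Fin n → R) := by
    apply hlen_congr_post S ι
    constructor
    · intro f g hfg
      ext x
      exact hι (LinearMap.congr_fun hfg x)
    · intro g
      have hg : ∀ b, π (g b) = 0 := fun b => hsoc _ (fun a ha => by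
        rw [← map_smul, hB a ha, map_zero])
      obtain ⟨c, hc⟩ := exists_cod ι π hι hex g hg
      exact ⟨c, LinearMap.ext hc⟩
  rw [h1, hlen_free_right S n, hlen_dual S L _ B rfl]

/-- The length of the top. -/
lemma hlen_top {n : ℕ} {Y : Type u} [AddCommGroup Y] [Module R Y] [Module.Finite R Y]
    (π : (Fin n → R) →ₗ[R] Y) (hπ : Function.Surjective π)
    (hk : ∀ v, π v = 0 → ∀ i, v i ∈ Ring.jacobson R) :
    hlen S R R (Y ⧸ rad R Y) = n * hlen S R R (resid R) := by
  obtain ⟨e⟩ := exists_top_equiv π hπ hk
  have h1 : hlen S R R (Y ⧸ rad R Y) = hlen S R R (Fin n → resid R) := by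
    apply hlen_congr_post S e.toLinearMap
    constructor
    · intro f g hfg
      ext
      exact e.injective (LinearMap.congr_fun hfg _)
    · intro g
      exact ⟨e.symm.toLinearMap ∘ₗ g, by ext; simp⟩
  rw [h1, hlen_free_right S n]

/-- Lower bound through the top. -/
lemma hlen_ge_top {n : ℕ} {Y B : Type u} [AddCommGroup Y] [Module R Y] [Module.Finite R Y]
    [AddCommGroup B] [Module R B] [Module.Finite R B]
    (π : (Fin n → R) →ₗ[R] Y) (hπ : Function.Surjective π)
    (hk : ∀ v, π v = 0 → ∀ i, v i ∈ Ring.jacobson R) :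
    n * hlen S R (resid R) B ≤ hlen S R Y B := by
  obtain ⟨e⟩ := exists_top_equiv π hπ hk
  rw [← hlen_pi_left S n]
  exact hlen_le_of_surjective S (e.toLinearMap ∘ₗ (rad R Y).mkQ)
    (e.surjective.comp (Submodule.mkQ_surjective _))

/-- The length of a module killed by the radical is the length of the maps from the residue
module. -/
lemma hlen_resid_eq {B : Type u} [AddCommGroup B] [Module R B] [Module.Finite R B]
    (hB : ∀ a ∈ Ring.jacobson R, ∀ y : B, a • y = 0) :
    hlen S R (resid R) B = hlen S R R B := by
  refine hlen_cover S (Ring.jacobson R).mkQ (Submodule.mkQ_surjective _) ?_ B hB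
  intro x hx
  have h : x ∈ Ring.jacobson R := by
    simpa using hx
  have : x = x • (1 : R) := by simp
  rw [this]
  exact Submodule.smul_mem_smul h trivial

end Count

end Vale.Agent.Lib.P195F
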